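import Mathlib

/-!
Fubini induction for the Borell-Brascamp-Lieb inequality in transport form

Helper file for problem P074 (piece B of the plan in the team thread).

`Omega n p q = ((p^(-1/n) + q^(-1/n))/2)^n`.  The property `BBLProp X n` says: for nonnegative
integrable `f0, f1` on `X` with equal integrals, bounded measurable `a, b` and measurable
`h : X → [0, ∞]` with `a x + b x' ≤ h ((x + x')/2) * Omega n (f0 x) (f1 x')` whenever
`f0 x > 0`, `f1 x' > 0`, one has `∫ a f0 + ∫ b f1 ≤ ∫ h`.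

Main results: the one-dimensional property on `ℝ` (a hypothesis here) implies the property
with parameter `n` on `Fin n → ℝ` and on `EuclideanSpace ℝ (Fin n)`, for all `n ≥ 1`.
-/

open MeasureTheory

namespace Vale.Agent.H61.BBL

/-- `Omega n p q = ((p^(-1/n) + q^(-1/n))/2)^n`, the reciprocal of the `(-1/n)`-power mean of
`p` and `q`. -/
noncomputable def Omega (n : ℕ) (p q : ℝ) : ℝ :=
  ((p ^ (-(1 : ℝ) / n) + q ^ (-(1 : ℝ) / n)) / 2) ^ n

theorem Omega_nonneg (n : ℕ) {p q : ℝ} (hp : 0 ≤ p) (hq : 0 ≤ q) : 0 ≤ Omega n p q := by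
  unfold Omega
  have h1 := Real.rpow_nonneg hp (-(1 : ℝ) / n)
  have h2 := Real.rpow_nonneg hq (-(1 : ℝ) / n)
  positivity

theorem Omega_one (p q : ℝ) : Omega 1 p q = (p⁻¹ + q⁻¹) / 2 := by
  unfold Omega
  simp [Real.rpow_neg_one]

/-- Hoelder's inequality for `Omega`. -/
theorem omega_holder {n : ℕ} (hn : 1 ≤ n) {F G p q : ℝ} (hF : 0 < F) (hG : 0 < G)
    (hp : 0 < p) (hq : 0 < q) :
    Omega (n + 1) (F * p) (G * q) ≤ Omega 1 F G * Omega n p q := by
  have hnpos : (0 : ℝ) < n := by exact_mod_cast hn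
  have hN1 : (1 : ℝ) < (n : ℝ) + 1 := by linarith
  have hNpos : (0 : ℝ) < (n : ℝ) + 1 := by linarith
  have hconj : ((n : ℝ) + 1).HolderConjugate (((n : ℝ) + 1) / n) := by
    rw [Real.holderConjugate_iff]
    refine ⟨hN1, ?_⟩
    field_simp
    ring
  set e : ℝ := -(1 : ℝ) / ((n : ℝ) + 1) with he
  have hu1 : 0 ≤ F ^ e := Real.rpow_nonneg hF.le _
  have hu2 : 0 ≤ G ^ e := Real.rpow_nonneg hG.le _
  have hv1 : 0 ≤ p ^ e := Real.rpow_nonneg hp.le _
  have hv2 : 0 ≤ q ^ e := Real.rpow_nonneg hq.le _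
  have key := Real.inner_le_Lp_mul_Lq_of_nonneg (Finset.univ : Finset (Fin 2)) hconj
    (f := ![F ^ e, G ^ e]) (g := ![p ^ e, q ^ e])
    (by intro i _; fin_cases i <;> simp [hu1, hu2])
    (by intro i _; fin_cases i <;> simp [hv1, hv2])
  simp only [Fin.sum_univ_two, Matrix.cons_val_zero, Matrix.cons_val_one] at key
  have e1 : (F ^ e) ^ ((n : ℝ) + 1) = F⁻¹ := by
    rw [← Real.rpow_mul hF.le, he]
    have : -(1 : ℝ) / ((n : ℝ) + 1) * ((n : ℝ) + 1) = -1 := by field_simp
    rw [this, Real.rpow_neg_one]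
  have e2 : (G ^ e) ^ ((n : ℝ) + 1) = G⁻¹ := by
    rw [← Real.rpow_mul hG.le, he]
    have : -(1 : ℝ) / ((n : ℝ) + 1) * ((n : ℝ) + 1) = -1 := by field_simp
    rw [this, Real.rpow_neg_one]
  have e3 : (p ^ e) ^ (((n : ℝ) + 1) / n) = p ^ (-(1 : ℝ) / n) := by
    rw [← Real.rpow_mul hp.le, he]
    congr 1
    field_simp
  have e4 : (q ^ e) ^ (((n : ℝ) + 1) / n) = q ^ (-(1 : ℝ) / n) := by
    rw [← Real.rpow_mul hq.le, he]
    congr 1
    field_simp
  rw [e1, e2, e3, e4] at key
  rw [Omega_one]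
  unfold Omega
  set X := F⁻¹ + G⁻¹ with hX
  set Y := p ^ (-(1 : ℝ) / n) + q ^ (-(1 : ℝ) / n) with hY
  have hXpos : 0 < X := by positivity
  have hYpos : 0 < Y := by
    have h1 := Real.rpow_pos_of_pos hp (-(1 : ℝ) / n)
    have h2 := Real.rpow_pos_of_pos hq (-(1 : ℝ) / n)
    positivity
  have ecast : -(1 : ℝ) / ((n + 1 : ℕ) : ℝ) = e := by
    rw [he]; push_cast; rfl
  rw [ecast, Real.mul_rpow hF.le hp.le, Real.mul_rpow hG.le hq.le]
  have step : (F ^ e * p ^ e + G ^ e * q ^ e) / 2 ≤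
      (X ^ (1 / ((n : ℝ) + 1)) * Y ^ (1 / (((n : ℝ) + 1) / n))) / 2 := by
    linarith
  have hlhs : 0 ≤ (F ^ e * p ^ e + G ^ e * q ^ e) / 2 := by positivity
  refine (pow_le_pow_left₀ hlhs step (n + 1)).trans (le_of_eq ?_)
  rw [div_pow, mul_pow, div_pow]
  have p1 : (X ^ (1 / ((n : ℝ) + 1))) ^ (n + 1) = X := by
    rw [← Real.rpow_natCast, ← Real.rpow_mul hXpos.le]
    have : 1 / ((n : ℝ) + 1) * ((n + 1 : ℕ) : ℝ) = 1 := by push_cast; field_simp
    rw [this, Real.rpow_one]
  have p2 : (Y ^ (1 / (((n : ℝ) + 1) / n))) ^ (n + 1) = Y ^ n := by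
    rw [← Real.rpow_natCast, ← Real.rpow_mul hYpos.le]
    have : 1 / (((n : ℝ) + 1) / n) * ((n + 1 : ℕ) : ℝ) = n := by push_cast; field_simp
    rw [this, Real.rpow_natCast]
  rw [p1, p2]
  ring

/-- The Borell-Brascamp-Lieb inequality in transport form with parameter `n` on the space `X`:
for nonnegative integrable `f0, f1` with equal integrals, bounded measurable `a, b` and a
measurable `h : X → [0, ∞]` such that `a x + b x' ≤ h ((x + x')/2) * Omega n (f0 x) (f1 x')`
whenever `f0 x > 0` and `f1 x' > 0`, one has `∫ a f0 + ∫ b f1 ≤ ∫ h`. -/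
def BBLProp (X : Type*) [AddCommGroup X] [Module ℝ X] [MeasureSpace X] (n : ℕ) : Prop :=
  ∀ (f0 f1 a b : X → ℝ) (h : X → ENNReal),
    Measurable f0 → Measurable f1 → (∀ x, 0 ≤ f0 x) → (∀ x, 0 ≤ f1 x) →
    Integrable f0 → Integrable f1 → ∫ x, f0 x = ∫ x, f1 x →
    Measurable a → Measurable b → (∃ M, ∀ x, |a x| ≤ M) → (∃ M, ∀ x, |b x| ≤ M) →
    Measurable h →
    (∀ x x', 0 < f0 x → 0 < f1 x' →
      ENNReal.ofReal (a x + b x') ≤
        h ((1 / 2 : ℝ) • (x + x')) * ENNReal.ofReal (Omega n (f0 x) (f1 x'))) →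
    ENNReal.ofReal ((∫ x, a x * f0 x) + ∫ x, b x * f1 x) ≤ ∫⁻ x, h x

section Marginals

variable {Y : Type*} [MeasureSpace Y] [SigmaFinite (volume : Measure Y)]

/-- The marginal `t ↦ ∫ f (t, y) dy`. -/
noncomputable def marg (f : ℝ × Y → ℝ) (t : ℝ) : ℝ := ∫ y, f (t, y)

/-- The conditional average `t ↦ (∫ a (t, y) f (t, y) dy) / (∫ f (t, y) dy)`. -/
noncomputable def condAvg (a f : ℝ × Y → ℝ) (t : ℝ) : ℝ :=
  (∫ y, a (t, y) * f (t, y)) / marg f t

theorem marg_measurable {f : ℝ × Y → ℝ} (hfm : Measurable f) : Measurable (marg f) :=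
  (hfm.stronglyMeasurable.integral_prod_right' (ν := (volume : Measure Y))).measurable

theorem marg_nonneg {f : ℝ × Y → ℝ} (hf : ∀ x, 0 ≤ f x) (t : ℝ) : 0 ≤ marg f t :=
  integral_nonneg fun y => hf (t, y)

theorem marg_integrable {f : ℝ × Y → ℝ}
    (hfi : Integrable f ((volume : Measure ℝ).prod (volume : Measure Y))) :
    Integrable (marg f) :=
  hfi.integral_prod_left

theorem integral_marg {f : ℝ × Y → ℝ}
    (hfi : Integrable f ((volume : Measure ℝ).prod (volume : Measure Y))) :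
    ∫ t, marg f t = ∫ x, f x ∂((volume : Measure ℝ).prod (volume : Measure Y)) :=
  (integral_prod f hfi).symm

theorem section_integrable {f : ℝ × Y → ℝ} {t : ℝ} (ht : 0 < marg f t) :
    Integrable (fun y => f (t, y)) := by
  by_contra hni
  have : marg f t = 0 := integral_undef hni
  linarith

theorem mul_integrable {a f : ℝ × Y → ℝ} (hfm : Measurable f)
    (hfi : Integrable f ((volume : Measure ℝ).prod (volume : Measure Y)))
    (ham : Measurable a) {M : ℝ} (hM : ∀ x, |a x| ≤ M) :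
    Integrable (fun x => a x * f x) ((volume : Measure ℝ).prod (volume : Measure Y)) := by
  refine Integrable.mono' (hfi.norm.const_mul M) (ham.mul hfm).aestronglyMeasurable
    (Filter.Eventually.of_forall fun x => ?_)
  rw [norm_mul, Real.norm_eq_abs]
  exact mul_le_mul_of_nonneg_right (hM x) (norm_nonneg _)

theorem condAvg_measurable {a f : ℝ × Y → ℝ} (hfm : Measurable f) (ham : Measurable a) :
    Measurable (condAvg a f) :=
  ((ham.mul hfm).stronglyMeasurable.integral_prod_right'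
    (ν := (volume : Measure Y))).measurable.div (marg_measurable hfm)

theorem condAvg_bound {a f : ℝ × Y → ℝ} (hf : ∀ x, 0 ≤ f x) {M : ℝ} (hM : ∀ x, |a x| ≤ M)
    (t : ℝ) : |condAvg a f t| ≤ |M| := by
  unfold condAvg
  by_cases ht : marg f t = 0
  · rw [ht, div_zero, abs_zero]; exact abs_nonneg _
  have hpos : 0 < marg f t := lt_of_le_of_ne (marg_nonneg hf t) (Ne.symm ht)
  have hsi := section_integrable hpos
  rw [abs_div, abs_of_pos hpos, div_le_iff₀ hpos]
  calc |∫ y, a (t, y) * f (t, y)| ≤ ∫ y, |a (t, y) * f (t, y)| := abs_integral_le_integral_abs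
    _ ≤ ∫ y, |M| * f (t, y) := by
        refine integral_mono_of_nonneg (Filter.Eventually.of_forall fun y => abs_nonneg _)
          (hsi.const_mul _) (Filter.Eventually.of_forall fun y => ?_)
        show |a (t, y) * f (t, y)| ≤ |M| * f (t, y)
        rw [abs_mul, abs_of_nonneg (hf (t, y))]
        exact mul_le_mul_of_nonneg_right ((hM _).trans (le_abs_self M)) (hf _)
    _ = |M| * marg f t := integral_const_mul _ _

theorem integral_condAvg_mul_marg {a f : ℝ × Y → ℝ} (hfm : Measurable f) (hf : ∀ x, 0 ≤ f x)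
    (hfi : Integrable f ((volume : Measure ℝ).prod (volume : Measure Y)))
    (ham : Measurable a) {M : ℝ} (hM : ∀ x, |a x| ≤ M) :
    ∫ t, condAvg a f t * marg f t =
      ∫ x, a x * f x ∂((volume : Measure ℝ).prod (volume : Measure Y)) := by
  rw [integral_prod _ (mul_integrable hfm hfi ham hM)]
  refine integral_congr_ae ?_
  filter_upwards [hfi.prod_right_ae] with t ht
  unfold condAvg
  by_cases h0 : marg f t = 0
  · rw [h0, mul_zero]
    have hz : (fun y => f (t, y)) =ᵐ[volume] 0 :=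
      (integral_eq_zero_iff_of_nonneg (fun y => hf (t, y)) ht).mp h0
    symm
    refine integral_eq_zero_of_ae ?_
    filter_upwards [hz] with y hy
    simp only [Pi.zero_apply] at hy ⊢
    rw [hy, mul_zero]
  · rw [div_mul_cancel₀ _ h0]

theorem integral_section_normalized (a f : ℝ × Y → ℝ) (t : ℝ) :
    ∫ y, a (t, y) * (f (t, y) / marg f t) = condAvg a f t := by
  unfold condAvg
  rw [← integral_div]
  congr 1 with y
  rw [mul_div_assoc]

end Marginals

/-- The Fubini step: the property with parameter `1` on `ℝ` and with parameter `n ≥ 1` on `Y`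
give the property with parameter `n + 1` on `ℝ × Y`. -/
theorem BBLProp.prod {Y : Type*} [AddCommGroup Y] [Module ℝ Y] [MeasureSpace Y]
    [SigmaFinite (volume : Measure Y)] {n : ℕ} (hn : 1 ≤ n)
    (h1 : BBLProp ℝ 1) (hY : BBLProp Y n) : BBLProp (ℝ × Y) (n + 1) := by
  intro f0 f1 a b h hf0m hf1m hf0 hf1 hf0i hf1i hint ham hbm hab hbb hhm hyp
  obtain ⟨Ma, hMa⟩ := hab
  obtain ⟨Mb, hMb⟩ := hbb
  have hvol : (volume : Measure (ℝ × Y)) = (volume : Measure ℝ).prod (volume : Measure Y) := rfl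
  rw [hvol] at hf0i hf1i hint ⊢
  have key := h1 (marg f0) (marg f1) (condAvg a f0) (condAvg b f1) (fun t => ∫⁻ y, h (t, y))
    (marg_measurable hf0m) (marg_measurable hf1m) (marg_nonneg hf0) (marg_nonneg hf1)
    (marg_integrable hf0i) (marg_integrable hf1i)
    (by rw [integral_marg hf0i, integral_marg hf1i, hint])
    (condAvg_measurable hf0m ham) (condAvg_measurable hf1m hbm)
    ⟨|Ma|, condAvg_bound hf0 hMa⟩ ⟨|Mb|, condAvg_bound hf1 hMb⟩
    hhm.lintegral_prod_right' ?_
  · rw [integral_condAvg_mul_marg hf0m hf0 hf0i ham hMa,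
      integral_condAvg_mul_marg hf1m hf1 hf1i hbm hMb] at key
    rw [lintegral_prod _ hhm.aemeasurable]
    exact key
  · intro t t' ht ht'
    have hs0 := section_integrable ht
    have hs1 := section_integrable ht'
    have hint' : ∫ y, f0 (t, y) / marg f0 t = ∫ y, f1 (t', y) / marg f1 t' := by
      rw [integral_div, integral_div]
      show marg f0 t / marg f0 t = marg f1 t' / marg f1 t'
      rw [div_self ht.ne', div_self ht'.ne']
    have key2 := hY (fun y => f0 (t, y) / marg f0 t) (fun y => f1 (t', y) / marg f1 t')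
      (fun y => a (t, y)) (fun y => b (t', y))
      (fun y => h ((1 / 2 : ℝ) • (t + t'), y) *
        ENNReal.ofReal (Omega 1 (marg f0 t) (marg f1 t')))
      ((hf0m.comp measurable_prodMk_left).div_const _)
      ((hf1m.comp measurable_prodMk_left).div_const _)
      (fun y => div_nonneg (hf0 _) ht.le) (fun y => div_nonneg (hf1 _) ht'.le)
      (hs0.div_const _) (hs1.div_const _) hint'
      (ham.comp measurable_prodMk_left) (hbm.comp measurable_prodMk_left)
      ⟨Ma, fun y => hMa _⟩ ⟨Mb, fun y => hMb _⟩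
      ((hhm.comp measurable_prodMk_left).mul_const _) ?_
    · have hl : ∫⁻ y, h ((1 / 2 : ℝ) • (t + t'), y) *
          ENNReal.ofReal (Omega 1 (marg f0 t) (marg f1 t')) =
          (∫⁻ y, h ((1 / 2 : ℝ) • (t + t'), y)) *
            ENNReal.ofReal (Omega 1 (marg f0 t) (marg f1 t')) :=
        lintegral_mul_const _ (hhm.comp measurable_prodMk_left)
      rw [integral_section_normalized, integral_section_normalized, hl] at key2
      exact key2
    · intro y y' hy hy'
      have hfy : 0 < f0 (t, y) := by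
        by_contra hneg
        have h0 : f0 (t, y) = 0 := le_antisymm (not_lt.mp hneg) (hf0 _)
        rw [h0, zero_div] at hy
        exact lt_irrefl _ hy
      have hfy' : 0 < f1 (t', y') := by
        by_contra hneg
        have h0 : f1 (t', y') = 0 := le_antisymm (not_lt.mp hneg) (hf1 _)
        rw [h0, zero_div] at hy'
        exact lt_irrefl _ hy'
      have hmain := hyp (t, y) (t', y') hfy hfy'
      have hmid : (1 / 2 : ℝ) • ((t, y) + (t', y')) =
          ((1 / 2 : ℝ) • (t + t'), (1 / 2 : ℝ) • (y + y')) := rfl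
      rw [hmid] at hmain
      refine hmain.trans ?_
      rw [mul_assoc, ← ENNReal.ofReal_mul (Omega_nonneg 1 ht.le ht'.le)]
      refine mul_le_mul_right ?_ _
      refine ENNReal.ofReal_le_ofReal ?_
      have e0 : f0 (t, y) = marg f0 t * (f0 (t, y) / marg f0 t) := by
        field_simp
      have e1 : f1 (t', y') = marg f1 t' * (f1 (t', y') / marg f1 t') := by
        field_simp
      calc Omega (n + 1) (f0 (t, y)) (f1 (t', y'))
          = Omega (n + 1) (marg f0 t * (f0 (t, y) / marg f0 t))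
              (marg f1 t' * (f1 (t', y') / marg f1 t')) := by rw [← e0, ← e1]
        _ ≤ Omega 1 (marg f0 t) (marg f1 t') *
              Omega n (f0 (t, y) / marg f0 t) (f1 (t', y') / marg f1 t') :=
            omega_holder hn ht ht' hy hy'

/-- Transfer of the property along a measure preserving measurable equivalence which preserves
midpoints. -/
theorem BBLProp.of_equiv {X W : Type*} [AddCommGroup X] [Module ℝ X] [MeasureSpace X]
    [AddCommGroup W] [Module ℝ W] [MeasureSpace W] {n : ℕ} (e : X ≃ᵐ W)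
    (hmp : MeasurePreserving e volume volume)
    (hmid : ∀ x x', e ((1 / 2 : ℝ) • (x + x')) = (1 / 2 : ℝ) • (e x + e x'))
    (hW : BBLProp W n) : BBLProp X n := by
  intro f0 f1 a b h hf0m hf1m hf0 hf1 hf0i hf1i hint ham hbm hab hbb hhm hyp
  obtain ⟨Ma, hMa⟩ := hab
  obtain ⟨Mb, hMb⟩ := hbb
  have hs : MeasurePreserving e.symm volume volume := hmp.symm
  have i0 : ∫ w, f0 (e.symm w) = ∫ x, f0 x := hs.integral_comp' f0
  have i1 : ∫ w, f1 (e.symm w) = ∫ x, f1 x := hs.integral_comp' f1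
  have key := hW (fun w => f0 (e.symm w)) (fun w => f1 (e.symm w)) (fun w => a (e.symm w))
    (fun w => b (e.symm w)) (fun w => h (e.symm w))
    (hf0m.comp e.symm.measurable) (hf1m.comp e.symm.measurable) (fun w => hf0 _) (fun w => hf1 _)
    ((hs.integrable_comp_emb e.symm.measurableEmbedding).mpr hf0i)
    ((hs.integrable_comp_emb e.symm.measurableEmbedding).mpr hf1i)
    (by rw [i0, i1, hint])
    (ham.comp e.symm.measurable) (hbm.comp e.symm.measurable)
    ⟨Ma, fun w => hMa _⟩ ⟨Mb, fun w => hMb _⟩ (hhm.comp e.symm.measurable) ?_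
  · have j0 : ∫ w, a (e.symm w) * f0 (e.symm w) = ∫ x, a x * f0 x :=
      hs.integral_comp' (fun x => a x * f0 x)
    have j1 : ∫ w, b (e.symm w) * f1 (e.symm w) = ∫ x, b x * f1 x :=
      hs.integral_comp' (fun x => b x * f1 x)
    have j2 : ∫⁻ w, h (e.symm w) = ∫⁻ x, h x :=
      hs.lintegral_comp_emb e.symm.measurableEmbedding h
    rw [j0, j1, j2] at key
    exact key
  · intro w w' hw hw'
    have hm : e.symm ((1 / 2 : ℝ) • (w + w')) = (1 / 2 : ℝ) • (e.symm w + e.symm w') := by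
      have := hmid (e.symm w) (e.symm w')
      rw [e.apply_symm_apply, e.apply_symm_apply] at this
      rw [← this, e.symm_apply_apply]
    show ENNReal.ofReal (a (e.symm w) + b (e.symm w')) ≤
      h (e.symm ((1 / 2 : ℝ) • (w + w'))) *
        ENNReal.ofReal (Omega n (f0 (e.symm w)) (f1 (e.symm w')))
    rw [hm]
    exact hyp _ _ hw hw'

theorem BBLProp.pi_one (h1 : BBLProp ℝ 1) : BBLProp (Fin 1 → ℝ) 1 :=
  BBLProp.of_equiv (MeasurableEquiv.funUnique (Fin 1) ℝ) (volume_preserving_funUnique (Fin 1) ℝ)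
    (fun _ _ => rfl) h1

/-- The one-dimensional property implies the property with parameter `n` on `Fin n → ℝ`. -/
theorem BBLProp.pi (h1 : BBLProp ℝ 1) : ∀ n : ℕ, 1 ≤ n → BBLProp (Fin n → ℝ) n := by
  intro n hn
  induction n, hn using Nat.le_induction with
  | base => exact BBLProp.pi_one h1
  | succ n hn ih =>
    exact BBLProp.of_equiv (MeasurableEquiv.piFinSuccAbove (fun _ => ℝ) 0)
      (volume_preserving_piFinSuccAbove (fun _ => ℝ) 0) (fun _ _ => rfl)
      (BBLProp.prod hn h1 ih)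

/-- The one-dimensional property implies the property with parameter `n` on
`EuclideanSpace ℝ (Fin n)`. -/
theorem BBLProp.euclidean (h1 : BBLProp ℝ 1) (n : ℕ) (hn : 1 ≤ n) :
    BBLProp (EuclideanSpace ℝ (Fin n)) n :=
  BBLProp.of_equiv (MeasurableEquiv.toLp 2 (Fin n → ℝ)).symm
    (EuclideanSpace.volume_preserving_symm_measurableEquiv_toLp (Fin n)) (fun _ _ => rfl)
    (BBLProp.pi h1 n hn)

/-- Real-valued form of the property: for `h ≥ 0` integrable and the pointwise hypothesis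
`a x + b x' ≤ h ((x + x')/2) * Omega n (f0 x) (f1 x')`, one has `∫ a f0 + ∫ b f1 ≤ ∫ h`. -/
theorem BBLProp.real {X : Type*} [AddCommGroup X] [Module ℝ X] [MeasureSpace X] {n : ℕ}
    (hX : BBLProp X n) {f0 f1 a b h : X → ℝ}
    (hf0m : Measurable f0) (hf1m : Measurable f1) (hf0 : ∀ x, 0 ≤ f0 x) (hf1 : ∀ x, 0 ≤ f1 x)
    (hf0i : Integrable f0) (hf1i : Integrable f1) (hint : ∫ x, f0 x = ∫ x, f1 x)
    (ham : Measurable a) (hbm : Measurable b) (hab : ∃ M, ∀ x, |a x| ≤ M)
    (hbb : ∃ M, ∀ x, |b x| ≤ M) (hhm : Measurable h) (hh0 : ∀ x, 0 ≤ h x) (hhi : Integrable h)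
    (hyp : ∀ x x', 0 < f0 x → 0 < f1 x' →
      a x + b x' ≤ h ((1 / 2 : ℝ) • (x + x')) * Omega n (f0 x) (f1 x')) :
    (∫ x, a x * f0 x) + ∫ x, b x * f1 x ≤ ∫ x, h x := by
  have key := hX f0 f1 a b (fun x => ENNReal.ofReal (h x)) hf0m hf1m hf0 hf1 hf0i hf1i hint
    ham hbm hab hbb (ENNReal.measurable_ofReal.comp hhm) ?_
  · rw [← ofReal_integral_eq_lintegral_ofReal hhi (Filter.Eventually.of_forall hh0)] at key
    exact (ENNReal.ofReal_le_ofReal_iff (integral_nonneg hh0)).mp key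
  · intro x x' hx hx'
    rw [← ENNReal.ofReal_mul (hh0 _)]
    exact ENNReal.ofReal_le_ofReal (hyp x x' hx hx')

/-- `Omega n p q` is at least the reciprocal of the arithmetic mean of `p` and `q`. -/
theorem two_div_add_le_Omega {n : ℕ} (hn : 1 ≤ n) {p q : ℝ} (hp : 0 < p) (hq : 0 < q) :
    2 / (p + q) ≤ Omega n p q := by
  have hnpos : (0 : ℝ) < n := by exact_mod_cast hn
  have hu : 0 < p ^ (-(1 : ℝ) / n) := Real.rpow_pos_of_pos hp _
  have hv : 0 < q ^ (-(1 : ℝ) / n) := Real.rpow_pos_of_pos hq _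
  have hun : (p ^ (-(1 : ℝ) / n)) ^ n = p⁻¹ := by
    rw [← Real.rpow_natCast, ← Real.rpow_mul hp.le]
    have : -(1 : ℝ) / n * n = -1 := by field_simp
    rw [this, Real.rpow_neg_one]
  have hvn : (q ^ (-(1 : ℝ) / n)) ^ n = q⁻¹ := by
    rw [← Real.rpow_natCast, ← Real.rpow_mul hq.le]
    have : -(1 : ℝ) / n * n = -1 := by field_simp
    rw [this, Real.rpow_neg_one]
  unfold Omega
  set u := p ^ (-(1 : ℝ) / n) with hudef
  set v := q ^ (-(1 : ℝ) / n) with hvdef
  have h1 : u * v ≤ ((u + v) / 2) ^ 2 := by nlinarith [sq_nonneg (u - v)]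
  have h2 : (u * v) ^ n ≤ (((u + v) / 2) ^ 2) ^ n :=
    pow_le_pow_left₀ (mul_pos hu hv).le h1 n
  have h3 : (u * v) ^ n = (p * q)⁻¹ := by
    rw [mul_pow, hun, hvn, mul_inv]
  have h4 : (2 / (p + q)) ^ 2 ≤ (p * q)⁻¹ := by
    rw [div_pow, div_le_iff₀ (by positivity), inv_mul_eq_div, le_div_iff₀ (mul_pos hp hq)]
    nlinarith [sq_nonneg (p - q)]
  have h5 : (2 / (p + q)) ^ 2 ≤ (((u + v) / 2) ^ n) ^ 2 := by
    rw [← pow_mul, mul_comm n 2, pow_mul]
    exact h4.trans (h3 ▸ h2)
  exact (pow_le_pow_iff_left₀ (by positivity) (by positivity) (two_ne_zero)).mp h5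

/-- The form used for sources `1 + g`: `1 - g/2 ≤ Omega n 1 (1 + g)` for `g > -1`. -/
theorem one_sub_half_le_Omega {n : ℕ} (hn : 1 ≤ n) {g : ℝ} (hg : -1 < g) :
    1 - g / 2 ≤ Omega n 1 (1 + g) := by
  refine le_trans ?_ (two_div_add_le_Omega hn one_pos (by linarith))
  rw [le_div_iff₀ (by linarith)]
  nlinarith [sq_nonneg g]

end Vale.Agent.H61.BBL
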